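import Vale.Agent.Lib.P121.Final

open MeasureTheory
open scoped ENNReal
open Vale.Agent.Lib.P121

/-- There is a Borel probability measure on `E3`, absolutely continuous with respect to Lebesgue
measure and with finite Kantorovich value for the three-marginal Coulomb cost, which has no
optimal Monge plan: no pair of Borel maps pushing the measure to itself has cost equal to the
Kantorovich value. -/
theorem Vale.Agent.Results.P121.A_main.result :
    ∃ μ : Measure E3, IsProbabilityMeasure μ ∧ μ ≪ volume ∧ kantorovichValue μ < ∞ ∧
      ¬ ∃ T₂ T₃ : E3 → E3, Measurable T₂ ∧ Measurable T₃ ∧ μ.map T₂ = μ ∧ μ.map T₃ = μ ∧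
        ∫⁻ x, coulomb x (T₂ x) (T₃ x) ∂μ = kantorovichValue μ :=
  main_counterexample
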